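import Vale.Agent.Lib.P062.Red
import Vale.Agent.Lib.P062.Gen.C0
import Vale.Agent.Lib.P062.Gen.C1
import Vale.Agent.Lib.P062.Gen.C2
import Vale.Agent.Lib.P062.Gen.C3
import Vale.Agent.Lib.P062.Gen.C4

namespace Vale.Agent.Lib.P062.Gen
open Chk

def Z0 : Nat := nat_lit 149502054219159247058786210762305076011056607666638479876955608690448418397370900910086642030866936974084470355511107370227136879612405755585191078810697779495801449261071044989353023177910650929152

def L : List (Nat × Nat × Nat) := [(7, 1, 78), (6, 1, 190), (6, 0, 283), (5, 1, 190), (5, 0, 316), (4, 4, 190), (4, 3, 360), (4, 2, 360), (4, 1, 394), (4, 0, 425), (3, 3, 426), (3, 2, 435), (3, 1, 518), (3, 0, 583), (2, 2, 605), (2, 1, 836), (2, 0, 858), (1, 1, 1049), (5, 2, 583), (5, 3, 836), (5, 4, 836), (6, 2, 836), (7, 2, 1049)]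

theorem g0 : ∀ j, j < (nat_lit 573) → Good tbl j :=
  chunk_extend (fun j hj => absurd hj (Nat.not_lt_zero j)) ck0 (by decide +kernel)

theorem g1 : ∀ j, j < (nat_lit 947) → Good tbl j :=
  chunk_extend g0 ck1 (by decide +kernel)

theorem g2 : ∀ j, j < (nat_lit 1184) → Good tbl j :=
  chunk_extend g1 ck2 (by decide +kernel)

theorem g3 : ∀ j, j < (nat_lit 1472) → Good tbl j :=
  chunk_extend g2 ck3 (by decide +kernel)

theorem g4 : ∀ j, j < (nat_lit 1667) → Good tbl j :=
  chunk_extend g3 ck4 (by decide +kernel)

theorem rows : ∀ j, j < (nat_lit 1667) → RowValid (find tbl j) := rows_valid g4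

theorem hj0 : (nat_lit 78) < (nat_lit 1667) := by decide +kernel

theorem h0 : rowIs tbl (nat_lit 78) Z0 = true := by decide +kernel

theorem hL : ∀ t ∈ L, t.2.2 < (nat_lit 1667) ∧ taskOK tbl t = true ∧ t.1 ≤ 18 ∧ t.2.1 ≤ 18 ∧ (t.1 ≠ 0 ∨ t.2.1 ≠ 0) := by
  decide +kernel

def J0 : List Nat := [1108, 1112, 1118, 1123, 1129, 1137, 1151, 1169, 1189, 1204, 1234, 1257, 1289, 1304, 1316, 1317, 1318, 1320, 1340, 1359, 1507]

def mask0 : Nat := nat_lit 5954262830815946494440468064007740237496571878468728087513875999273036838532266441790969898967138332125836366047228135112217242456098340864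

def forb0 : Nat := nat_lit 2772669694120814859578414184143083703436437075375816575170479580614621307805625623039974406104139578097391210961403571828974157824

theorem lv0 : levelOK tbl (nat_lit 1667) J0 mask0 forb0 (nat_lit 493) = true := by
  decide +kernel

def J1 : List Nat := [1525, 1527, 1529, 1531, 1533, 1535, 1536, 1538, 1539, 1541, 1567, 1666]

def mask1 : Nat := nat_lit 5954262830815946494763249298768603811203561774969104571805089223376689777636098861358550851719243481454542035207245364041705138952691777536

def forb1 : Nat := nat_lit 25573364124188608362250714200586433236270930168854527371274650888626861859581999540640168904101751850781276625850702632856901027726133205058103279616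

theorem lv1 : levelOK tbl (nat_lit 1667) J1 mask1 forb1 (nat_lit 365) = true := by
  decide +kernel

end Vale.Agent.Lib.P062.Gen
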