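import Vale.Agent.Lib.P062.Gen.Tb0

namespace Vale.Agent.Lib.P062.Gen
open Chk

def tbl : BT := BT.node (BT.node (BT.node (tp0) (tp4)) (BT.node (tp2) (tp6))) (BT.node (BT.node (tp1) (tp5)) (BT.node (tp3) (tp7)))

end Vale.Agent.Lib.P062.Gen
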